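import Vale.Agent.H29.CR.Cycles

/-!
# Absorbing two outside cliques into a clique

If `S`, `A`, `B` are pairwise disjoint cliques, `u1, u2, u3` are three different vertices of `S`,
every vertex of `A` is adjacent to `u1` and `u2`, and every vertex of `B` is adjacent to `u2`
and `u3`, then the graph has a cycle through all vertices of `S ∪ A ∪ B`:
`u1, A, u2, B, u3, (rest of S)`.
-/

namespace Vale.Agent.H45.CRB

open SimpleGraph Vale.Agent.H29.CR

variable {V : Type*} [DecidableEq V]

/-- Absorption of two outside cliques `A`, `B` into a clique `S` through three vertices of `S`. -/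
theorem hasCycle_absorb (G : SimpleGraph V) (S A B : Finset V)
    (hS : G.IsClique (S : Set V)) (hA : G.IsClique (A : Set V)) (hB : G.IsClique (B : Set V))
    (hAS : Disjoint A S) (hBS : Disjoint B S) (hAB : Disjoint A B)
    {u1 u2 u3 : V} (h1 : u1 ∈ S) (h2 : u2 ∈ S) (h3 : u3 ∈ S)
    (h12 : u1 ≠ u2) (h13 : u1 ≠ u3) (h23 : u2 ≠ u3)
    (hA1 : ∀ y ∈ A, G.Adj u1 y) (hA2 : ∀ y ∈ A, G.Adj y u2)
    (hB2 : ∀ y ∈ B, G.Adj u2 y) (hB3 : ∀ y ∈ B, G.Adj y u3) :
    HasCycle G (S.card + A.card + B.card) := by
  have hS' : G.IsClique ((S.erase u2 : Finset V) : Set V) :=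
    hS.subset (Finset.coe_subset.mpr (Finset.erase_subset u2 S))
  have h1' : u1 ∈ S.erase u2 := Finset.mem_erase.mpr ⟨h12, h1⟩
  have h3' : u3 ∈ S.erase u2 := Finset.mem_erase.mpr ⟨fun h => h23 h.symm, h3⟩
  have hL : A.toList ++ u2 :: B.toList ≠ [] := by simp
  have hnd : (A.toList ++ u2 :: B.toList).Nodup := by
    rw [List.nodup_append]
    refine ⟨A.nodup_toList, ?_, ?_⟩
    · rw [List.nodup_cons]
      exact ⟨fun h => Finset.disjoint_left.mp hBS (Finset.mem_toList.mp h) h2, B.nodup_toList⟩
    · intro x hx y hy hxy
      subst hxy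
      have hxA := Finset.mem_toList.mp hx
      rcases List.mem_cons.mp hy with rfl | hy
      · exact Finset.disjoint_left.mp hAS hxA h2
      · exact Finset.disjoint_left.mp hAB hxA (Finset.mem_toList.mp hy)
  have hdisj : ∀ x ∈ A.toList ++ u2 :: B.toList, x ∉ S.erase u2 := by
    intro x hx hxS
    rcases List.mem_append.mp hx with hx | hx
    · exact Finset.disjoint_left.mp hAS (Finset.mem_toList.mp hx) (Finset.mem_of_mem_erase hxS)
    · rcases List.mem_cons.mp hx with rfl | hx
      · exact (Finset.mem_erase.mp hxS).1 rfl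
      · exact Finset.disjoint_left.mp hBS (Finset.mem_toList.mp hx)
          (Finset.mem_of_mem_erase hxS)
  have hchA : A.toList.IsChain G.Adj :=
    crlist_chain_of_clique G (A : Set V) hA _ A.nodup_toList
      (fun x hx => Finset.mem_coe.mpr (Finset.mem_toList.mp hx))
  have hchB : B.toList.IsChain G.Adj :=
    crlist_chain_of_clique G (B : Set V) hB _ B.nodup_toList
      (fun x hx => Finset.mem_coe.mpr (Finset.mem_toList.mp hx))
  have hchuB : (u2 :: B.toList).IsChain G.Adj := by
    rw [List.isChain_cons]
    exact ⟨fun y hy => hB2 y (Finset.mem_toList.mp (List.mem_of_mem_head? hy)), hchB⟩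
  have hch : (A.toList ++ u2 :: B.toList).IsChain G.Adj := by
    apply List.IsChain.append hchA hchuB
    intro x hx y hy
    have hxA : x ∈ A := Finset.mem_toList.mp (List.mem_of_mem_getLast? hx)
    have ey : y = u2 := by
      rw [List.head?_cons] at hy
      exact (Option.mem_some_iff.mp hy).symm
    rw [ey]
    exact hA2 x hxA
  have hhead : G.Adj u1 ((A.toList ++ u2 :: B.toList).head hL) := by
    have e : A.toList ++ u2 :: B.toList = (A.toList ++ [u2]) ++ B.toList := by simp
    have hne : A.toList ++ [u2] ≠ [] := by simp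
    have hmem : (A.toList ++ u2 :: B.toList).head hL ∈ A.toList ++ [u2] := by
      have : (A.toList ++ u2 :: B.toList).head hL = (A.toList ++ [u2]).head hne := by
        simp only [e]
        exact List.head_append_of_ne_nil hne
      rw [this]
      exact List.head_mem hne
    rcases List.mem_append.mp hmem with hx | hx
    · exact hA1 _ (Finset.mem_toList.mp hx)
    · rw [List.mem_singleton.mp hx]
      exact hS (Finset.mem_coe.mpr h1) (Finset.mem_coe.mpr h2) h12
  have hlast : G.Adj ((A.toList ++ u2 :: B.toList).getLast hL) u3 := by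
    have hne : u2 :: B.toList ≠ [] := List.cons_ne_nil _ _
    have hmem : (A.toList ++ u2 :: B.toList).getLast hL ∈ u2 :: B.toList := by
      rw [List.getLast_append_of_ne_nil hL hne]
      exact List.getLast_mem hne
    rcases List.mem_cons.mp hmem with hx | hx
    · rw [hx]
      exact hS (Finset.mem_coe.mpr h2) (Finset.mem_coe.mpr h3) h23
    · exact hB3 _ (Finset.mem_toList.mp hx)
  have hcardS : 3 ≤ S.card := by
    have hsub : ({u1, u2, u3} : Finset V) ⊆ S := by
      intro x hx
      simp only [Finset.mem_insert, Finset.mem_singleton] at hx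
      rcases hx with rfl | rfl | rfl
      · exact h1
      · exact h2
      · exact h3
    have hc3 : ({u1, u2, u3} : Finset V).card = 3 := by
      rw [Finset.card_insert_of_notMem, Finset.card_insert_of_notMem, Finset.card_singleton]
      · simpa using h23
      · simp [h12, h13]
    calc 3 = ({u1, u2, u3} : Finset V).card := hc3.symm
      _ ≤ S.card := Finset.card_le_card hsub
  have hcardS' : (S.erase u2).card = S.card - 1 := Finset.card_erase_of_mem h2
  have hc := hasCycle_necklace G (S.erase u2) hS' h1' h3' h13 (A.toList ++ u2 :: B.toList) hL hnd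
    hdisj hch hhead hlast (S.card - 1) (by omega) (by omega)
  have hlen : S.card - 1 + (A.toList ++ u2 :: B.toList).length = S.card + A.card + B.card := by
    rw [List.length_append, List.length_cons, Finset.length_toList, Finset.length_toList]
    omega
  rw [hlen] at hc
  exact hc

end Vale.Agent.H45.CRB
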