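import Vale.Agent.H45.CRB.Marks

/-!
# Cycle or independent set when the vertex set is covered by `n + 1` cliques, `m ≥ 2n + 3`

Let `2n + 3 ≤ m`. If the complement of `G` can be coloured with `n + 1` colours (the vertex set
of `G` is covered by `n + 1` cliques) and `G` has more than `m - 1` times `n - 1` vertices, then
`G` contains a cycle of length exactly `m` or an independent set of `n` vertices.

Proof. Let `a`, `b` be two smallest classes, `L` the other `n - 1` colours, and `c0` the colour
of `L` with the smallest key (size, then index).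
1. Two classes of `L` have at least `m` vertices together, so the edges between them share one
   vertex; every edge between classes of `L` has a marked end (`mark_edge`).
2. Every class of `L` has at least three unmarked vertices: a class has at most `n - 2` marked
   vertices and, except for `c0`, at least `n + 2` vertices; the marked vertices of `c0` have
   two neighbours in different classes with at most `m - 2` vertices, which bounds their number
   by the total deficiency of the other classes of `L`.
3. The vertices of the classes `a`, `b` adjacent to all unmarked vertices of the class `j ∈ L`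
   are at most `m - 1 - |class j|` (`hasCycle_absorb`).
4. By counting, some vertex `y` of the classes `a`, `b` has a non-neighbour among the unmarked
   vertices of every class of `L`; these `n - 1` vertices and `y` are independent.
-/

namespace Vale.Agent.H45.CRB

open SimpleGraph Vale.Agent.H29.CR

variable {V : Type*} [Fintype V] [DecidableEq V]

/-- Core statement: `k + 3` classes, `m = P + 1` with `2k + 6 ≤ P`, more than `P (k + 1)`
vertices, no cycle of length `m`: there is an independent set of `k + 2` vertices. -/
theorem Cfg.exists_indep {G : SimpleGraph V} {k P : ℕ} {c : V → Fin (k + 2 + 1)}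
    (h : Cfg G (P + 1) c) (hmn : 2 * k + 6 ≤ P) (hbig : P * (k + 1) < Fintype.card V) :
    ∃ s : Finset V, G.IsNIndepSet (k + 2) s := by
  classical
  have hqle : ∀ i, (cl c i).card ≤ P := fun i => by
    have := h.card_le i
    omega
  have hbig' : P * k + P < Fintype.card V := by
    rw [Nat.mul_succ] at hbig
    exact hbig
  -- the two smallest classes `a`, `b`
  obtain ⟨a, -, ha⟩ := Finset.exists_min_image Finset.univ (fun i => (cl c i).card)
    ⟨0, Finset.mem_univ _⟩
  have hne1 : (Finset.univ.erase a).Nonempty := by
    rw [← Finset.card_pos, Finset.card_erase_of_mem (Finset.mem_univ a), Finset.card_univ,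
      Fintype.card_fin]
    omega
  obtain ⟨b, hb, hbmin⟩ := Finset.exists_min_image (Finset.univ.erase a)
    (fun i => (cl c i).card) hne1
  have hba : b ≠ a := Finset.ne_of_mem_erase hb
  obtain ⟨L, hL⟩ : ∃ L : Finset (Fin (k + 2 + 1)), L = (Finset.univ.erase a).erase b := ⟨_, rfl⟩
  have hLmem : ∀ j, j ∈ L ↔ j ≠ b ∧ j ≠ a := by
    intro j
    rw [hL, Finset.mem_erase, Finset.mem_erase]
    simp
  have hLcard : L.card = k + 1 := by
    rw [hL, Finset.card_erase_of_mem hb, Finset.card_erase_of_mem (Finset.mem_univ a),
      Finset.card_univ, Fintype.card_fin]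
    omega
  have haL : a ∉ L := fun h' => ((hLmem a).mp h').2 rfl
  have hbL : b ∉ L := fun h' => ((hLmem b).mp h').1 rfl
  have haj : ∀ j, (cl c a).card ≤ (cl c j).card := fun j => ha j (Finset.mem_univ j)
  have hbj : ∀ j ∈ L, (cl c b).card ≤ (cl c j).card := fun j hj =>
    hbmin j (Finset.mem_erase.mpr ⟨((hLmem j).mp hj).2, Finset.mem_univ j⟩)
  -- the sum of the class sizes
  have hsum : (cl c a).card + (cl c b).card + ∑ j ∈ L, (cl c j).card = Fintype.card V := by
    rw [← sum_card_cl c, ← Finset.add_sum_erase Finset.univ _ (Finset.mem_univ a),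
      ← Finset.add_sum_erase (Finset.univ.erase a) _ hb, hL, add_assoc]
  -- deficiency sums
  have hdef : ∀ T : Finset (Fin (k + 2 + 1)),
      ∑ j ∈ T, (P - (cl c j).card) + ∑ j ∈ T, (cl c j).card = T.card * P := by
    intro T
    rw [← Finset.sum_add_distrib, Finset.sum_congr rfl (fun j _ => Nat.sub_add_cancel (hqle j)),
      Finset.sum_const, smul_eq_mul]
  -- all pairs inside `L` are good
  have hpair : ∀ i ∈ L, ∀ j ∈ L, i ≠ j → P + 1 ≤ (cl c i).card + (cl c j).card := by
    intro i hi j hj hij
    by_contra hcon
    have hjL : j ∈ L.erase i := Finset.mem_erase.mpr ⟨Ne.symm hij, hj⟩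
    have hs1 : ∑ x ∈ L, (cl c x).card
        = (cl c i).card + ((cl c j).card + ∑ x ∈ (L.erase i).erase j, (cl c x).card) := by
      rw [Finset.add_sum_erase (L.erase i) (fun x => (cl c x).card) hjL,
        Finset.add_sum_erase L (fun x => (cl c x).card) hi]
    have hk1 : 1 ≤ k := by
      have hpos : 0 < (L.erase i).card := Finset.card_pos.mpr ⟨j, hjL⟩
      rw [Finset.card_erase_of_mem hi, hLcard] at hpos
      omega
    have hc2 : ((L.erase i).erase j).card = k - 1 := by
      rw [Finset.card_erase_of_mem hjL, Finset.card_erase_of_mem hi, hLcard]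
      omega
    have hs2 : ∑ x ∈ (L.erase i).erase j, (cl c x).card ≤ (k - 1) * P := by
      rw [← hc2, ← smul_eq_mul]
      exact Finset.sum_le_card_nsmul _ _ _ (fun x _ => hqle x)
    have e : (k - 1) * P + P = P * k := by
      obtain ⟨k', hk'⟩ : ∃ k', k = k' + 1 := ⟨k - 1, by omega⟩
      rw [hk', Nat.add_sub_cancel]
      ring
    have h1 := haj i
    have h2 := hbj j hj
    omega
  -- keys and the smallest class of `L`
  obtain ⟨key, hkeydef⟩ : ∃ key : Fin (k + 2 + 1) → ℕ ×ₗ Fin (k + 2 + 1),
      key = fun j => toLex ((cl c j).card, j) := ⟨_, rfl⟩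
  have hkey : Function.Injective key := by
    intro i j hij
    rw [hkeydef] at hij
    have := congrArg (fun p => (ofLex p).2) hij
    simpa using this
  have hLne : L.Nonempty := by
    rw [← Finset.card_pos, hLcard]
    omega
  obtain ⟨c0, hc0L, hc0min⟩ := Finset.exists_min_image L key hLne
  have hc0le : ∀ j ∈ L, (cl c c0).card ≤ (cl c j).card := by
    intro j hj
    have := hc0min j hj
    rw [hkeydef] at this
    exact (Prod.Lex.toLex_le_toLex'.mp this).1
  -- marked vertices
  have hmk : ∀ j ∈ L, ((cl c j).filter (fun x => Marked G c L key x)).card ≤ k := by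
    intro j hj
    have h1 := h.card_marked_le (L := L) (key := key) hpair hj (L.erase j)
      (fun x y hx hw => Finset.mem_erase.mpr ⟨by rw [← hx]; exact hw.2.1, hw.1⟩)
    rwa [Finset.card_erase_of_mem hj, hLcard, Nat.add_sub_cancel] at h1
  have hmk0 : ((cl c c0).filter (fun x => Marked G c L key x)).card
      ≤ ∑ j ∈ L.erase c0, (P - (cl c j).card) := by
    have h1 := h.card_marked_le (L := L) (key := key) hpair hc0L
      ((L.erase c0).filter (fun j => (cl c j).card + 2 ≤ P + 1))
      (fun x y hx hw => by
        obtain ⟨hyL, hyx, -, halt⟩ := hw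
        rw [hx] at hyx
        refine Finset.mem_filter.mpr ⟨Finset.mem_erase.mpr ⟨hyx, hyL⟩, ?_⟩
        rcases halt with hh | ⟨-, hlt⟩
        · obtain ⟨z, z', hz, hz', hzz, hxz, hxz'⟩ := hh
          exact h.hub_le (by rw [hx]; exact Ne.symm hyx) hz hz' hzz hxz hxz'
        · rw [hx] at hlt
          exact absurd hlt (not_lt.mpr (hc0min _ hyL)))
    refine h1.trans ?_
    rw [Finset.card_filter]
    apply Finset.sum_le_sum
    intro j _
    have := hqle j
    split_ifs with hj2
    · omega
    · exact Nat.zero_le _
  -- unmarked vertices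
  obtain ⟨U, hU⟩ : ∃ U : Fin (k + 2 + 1) → Finset V,
      U = fun j => (cl c j).filter (fun x => ¬ Marked G c L key x) := ⟨_, rfl⟩
  have hUmem : ∀ j x, x ∈ U j ↔ c x = j ∧ ¬ Marked G c L key x := by
    intro j x
    rw [hU]
    simp [mem_cl]
  have hUcard : ∀ j, ((cl c j).filter (fun x => Marked G c L key x)).card + (U j).card
      = (cl c j).card := by
    intro j
    rw [hU]
    exact Finset.card_filter_add_card_filter_not _
  have hsumL0 : ∑ j ∈ L, (cl c j).card
      = (cl c c0).card + ∑ j ∈ L.erase c0, (cl c j).card :=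
    (Finset.add_sum_erase L _ hc0L).symm
  have hdef0 := hdef (L.erase c0)
  rw [Finset.card_erase_of_mem hc0L, hLcard, Nat.add_sub_cancel, Nat.mul_comm] at hdef0
  have hU3 : ∀ j ∈ L, 3 ≤ (U j).card := by
    intro j hj
    have h1 := hUcard j
    have h2 := hmk j hj
    by_cases hjc : j = c0
    · subst hjc
      have h3 := hmk0
      have h4 := haj j
      have h5 := hbj j hj
      omega
    · have h3 := hpair c0 hc0L j hj (Ne.symm hjc)
      have h4 := hc0le j hj
      omega
  -- absorption
  obtain ⟨H, hH⟩ : ∃ H : Fin (k + 2 + 1) → Finset V,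
      H = fun j => (cl c a ∪ cl c b).filter (fun y => ∀ u ∈ U j, G.Adj y u) := ⟨_, rfl⟩
  have hHmem : ∀ j y, y ∈ H j ↔ (c y = a ∨ c y = b) ∧ ∀ u ∈ U j, G.Adj y u := by
    intro j y
    rw [hH]
    simp [mem_cl]
  have hHcard : ∀ j ∈ L, (H j).card ≤ P - (cl c j).card := by
    intro j hj
    by_contra hcon
    have hq := hqle j
    obtain ⟨Y, hYsub, hYcard⟩ := Finset.exists_subset_card_eq
      (show P + 1 - (cl c j).card ≤ (H j).card by omega)
    obtain ⟨u1, u2, u3, hu1, hu2, hu3, h12, h13, h23⟩ := Finset.two_lt_card_iff.mp (hU3 j hj)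
    have hY : ∀ y ∈ Y, (c y = a ∨ c y = b) ∧ ∀ u ∈ U j, G.Adj y u :=
      fun y hy => (hHmem j y).mp (hYsub hy)
    have hja : j ≠ a := ((hLmem j).mp hj).2
    have hjb : j ≠ b := ((hLmem j).mp hj).1
    have hAcl : G.IsClique ((Y.filter (fun y => c y = a) : Finset V) : Set V) := by
      intro x hx y hy hxy
      exact h.adj x y hxy (((Finset.mem_filter.mp (Finset.mem_coe.mp hx)).2).trans
        ((Finset.mem_filter.mp (Finset.mem_coe.mp hy)).2).symm)
    have hBcl : G.IsClique ((Y.filter (fun y => c y = b) : Finset V) : Set V) := by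
      intro x hx y hy hxy
      exact h.adj x y hxy (((Finset.mem_filter.mp (Finset.mem_coe.mp hx)).2).trans
        ((Finset.mem_filter.mp (Finset.mem_coe.mp hy)).2).symm)
    have hAS : Disjoint (Y.filter (fun y => c y = a)) (cl c j) := by
      rw [Finset.disjoint_left]
      intro x hx hx'
      exact hja ((mem_cl.mp hx').symm.trans (Finset.mem_filter.mp hx).2)
    have hBS : Disjoint (Y.filter (fun y => c y = b)) (cl c j) := by
      rw [Finset.disjoint_left]
      intro x hx hx'
      exact hjb ((mem_cl.mp hx').symm.trans (Finset.mem_filter.mp hx).2)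
    have hAB : Disjoint (Y.filter (fun y => c y = a)) (Y.filter (fun y => c y = b)) := by
      rw [Finset.disjoint_left]
      intro x hx hx'
      exact hba (((Finset.mem_filter.mp hx').2).symm.trans (Finset.mem_filter.mp hx).2)
    have hABcard : (Y.filter (fun y => c y = a)).card + (Y.filter (fun y => c y = b)).card
        = Y.card := by
      have e : Y.filter (fun y => c y = b) = Y.filter (fun y => ¬ c y = a) := by
        apply Finset.filter_congr
        intro y hy
        constructor
        · intro hb' ha'
          exact hba (hb'.symm.trans ha')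
        · intro hna
          rcases (hY y hy).1 with h' | h'
          · exact absurd h' hna
          · exact h'
      rw [e]
      exact Finset.card_filter_add_card_filter_not _
    have hu : ∀ u, u ∈ U j → u ∈ cl c j := fun u hu' => mem_cl.mpr ((hUmem j u).mp hu').1
    have hcyc := hasCycle_absorb G (cl c j) (Y.filter (fun y => c y = a))
      (Y.filter (fun y => c y = b)) (h.clique j) hAcl hBcl hAS hBS hAB (hu u1 hu1) (hu u2 hu2)
      (hu u3 hu3) h12 h13 h23
      (fun y hy => ((hY y (Finset.mem_filter.mp hy).1).2 u1 hu1).symm)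
      (fun y hy => (hY y (Finset.mem_filter.mp hy).1).2 u2 hu2)
      (fun y hy => ((hY y (Finset.mem_filter.mp hy).1).2 u2 hu2).symm)
      (fun y hy => (hY y (Finset.mem_filter.mp hy).1).2 u3 hu3)
    have hlen : (cl c j).card + (Y.filter (fun y => c y = a)).card
        + (Y.filter (fun y => c y = b)).card = P + 1 := by omega
    rw [hlen] at hcyc
    exact h.nocyc hcyc
  -- pigeonhole
  have hWcard : (cl c a ∪ cl c b).card = (cl c a).card + (cl c b).card := by
    apply Finset.card_union_of_disjoint
    rw [Finset.disjoint_left]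
    intro x hx hx'
    exact hba ((mem_cl.mp hx').symm.trans (mem_cl.mp hx))
  have hdefL := hdef L
  rw [hLcard] at hdefL
  have hbi : (L.biUnion H).card < (cl c a ∪ cl c b).card := by
    have h1 : (L.biUnion H).card ≤ ∑ j ∈ L, (P - (cl c j).card) :=
      Finset.card_biUnion_le.trans (Finset.sum_le_sum hHcard)
    have e : (k + 1) * P = P * k + P := by ring
    omega
  obtain ⟨y, hyW, hyH⟩ := Finset.exists_mem_notMem_of_card_lt_card hbi
  have hyab : c y = a ∨ c y = b := by
    rcases Finset.mem_union.mp hyW with h' | h'
    · exact Or.inl (mem_cl.mp h')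
    · exact Or.inr (mem_cl.mp h')
  have hyx : ∀ j ∈ L, ∃ u, u ∈ U j ∧ ¬ G.Adj y u := by
    intro j hj
    by_contra hcon
    exact hyH (Finset.mem_biUnion.mpr ⟨j, hj, (hHmem j y).mpr ⟨hyab, fun u hu => by
      by_contra hna
      exact hcon ⟨u, hu, hna⟩⟩⟩)
  have hVne : Nonempty V := ⟨y⟩
  choose! x hxU hxadj using hyx
  have hcx : ∀ j ∈ L, c (x j) = j := fun j hj => ((hUmem j _).mp (hxU j hj)).1
  have hxinj : Set.InjOn x (L : Set (Fin (k + 2 + 1))) := by
    intro i hi j hj hij
    rw [← hcx i (Finset.mem_coe.mp hi), hij, hcx j (Finset.mem_coe.mp hj)]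
  have hynot : y ∉ L.image x := by
    intro hy
    obtain ⟨j, hj, hjy⟩ := Finset.mem_image.mp hy
    rw [← hjy, hcx j hj] at hyab
    rcases hyab with h' | h'
    · rw [h'] at hj
      exact haL hj
    · rw [h'] at hj
      exact hbL hj
  refine ⟨insert y (L.image x), ?_, ?_⟩
  · intro u hu v hv huv hadj
    rcases Finset.mem_insert.mp (Finset.mem_coe.mp hu) with hu' | hu'
    · rcases Finset.mem_insert.mp (Finset.mem_coe.mp hv) with hv' | hv'
      · exact huv (hu'.trans hv'.symm)
      · obtain ⟨j, hj, hjv⟩ := Finset.mem_image.mp hv'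
        rw [hu', ← hjv] at hadj
        exact hxadj j hj hadj
    · obtain ⟨i, hi, hiu⟩ := Finset.mem_image.mp hu'
      rcases Finset.mem_insert.mp (Finset.mem_coe.mp hv) with hv' | hv'
      · rw [hv', ← hiu] at hadj
        exact hxadj i hi hadj.symm
      · obtain ⟨j, hj, hjv⟩ := Finset.mem_image.mp hv'
        rw [← hiu, ← hjv] at hadj huv
        have hij : i ≠ j := fun e => huv (by rw [e])
        have hci := hcx i hi
        have hcj := hcx j hj
        rcases mark_edge (G := G) (c := c) (L := L) hkey (x := x i) (y := x j)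
            (by rw [hci]; exact hi) (by rw [hcj]; exact hj) (by rw [hci, hcj]; exact hij) hadj
          with hm | hm
        · exact ((hUmem i _).mp (hxU i hi)).2 hm
        · exact ((hUmem j _).mp (hxU j hj)).2 hm
  · rw [Finset.card_insert_of_notMem hynot, Finset.card_image_of_injOn hxinj, hLcard]

/-- Main theorem. If `2n + 3 ≤ m`, the complement of `G` can be coloured with `n + 1` colours
(the vertex set of `G` is covered by `n + 1` cliques) and `G` has more than `m - 1` times `n - 1`
vertices, then `G` contains a cycle of length exactly `m` or an independent set of `n`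
vertices. -/
theorem cycle_or_indep_succ {V : Type*} [Fintype V] (G : SimpleGraph V) (m n : ℕ)
    (hmn : 2 * n + 3 ≤ m) (hcol : Gᶜ.Colorable (n + 1))
    (hcard : (m - 1) * (n - 1) < Fintype.card V) :
    (∃ (v : V) (p : G.Walk v v), p.IsCycle ∧ p.length = m) ∨
      ∃ s : Finset V, G.IsNIndepSet n s := by
  classical
  by_cases hcyc : HasCycle G m
  · exact Or.inl hcyc
  · right
    rcases Nat.lt_or_ge n 2 with hn | hn
    · interval_cases n
      · exact ⟨∅, ⟨by simp, by simp⟩⟩
      · have hpos : 0 < Fintype.card V := by omega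
        obtain ⟨v⟩ := Fintype.card_pos_iff.mp hpos
        exact ⟨{v}, ⟨by simp, by simp⟩⟩
    · obtain ⟨k, rfl⟩ : ∃ k, n = k + 2 := ⟨n - 2, by omega⟩
      obtain ⟨P, rfl⟩ : ∃ P, m = P + 1 := ⟨m - 1, by omega⟩
      obtain ⟨C⟩ := hcol
      have hcfg : Cfg G (P + 1) (fun v => C v) :=
        { adj := fun u v huv hcuv => by
            by_contra hadj
            exact C.valid (show Gᶜ.Adj u v from ⟨huv, hadj⟩) hcuv
          nocyc := hcyc
          hm := by omega }
      have e1 : P + 1 - 1 = P := by omega
      have e2 : k + 2 - 1 = k + 1 := by omega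
      rw [e1, e2] at hcard
      exact hcfg.exists_indep (by omega) hcard

end Vale.Agent.H45.CRB
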