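import Vale.Agent.H45.CRB.Absorb

/-!
# Cycle or independent set when the vertex set is covered by `n + 1` cliques: classes and marks

`cl c i`: the class of the colour `i`. `Cfg G m c`: the classes of `c` are cliques of `G`, the
graph `G` has no cycle of length `m`, and `4 ≤ m`.

For a set `L` of colours whose classes pairwise have at least `m` vertices together, the edges
between two classes of `L` all share one vertex (`Cfg.star`). A vertex is `Marked` if it is such
a common vertex (for a single edge: the end in the class with the larger key). Every edge between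
different classes of `L` has a marked end (`mark_edge`), and different marked vertices of one
class have witnesses of different colours (`Cfg.markW_inj`).
-/

namespace Vale.Agent.H45.CRB

open SimpleGraph Vale.Agent.H29.CR

variable {V : Type*} [Fintype V] [DecidableEq V] {n : ℕ}

/-- The class of the colour `i`. -/
def cl (c : V → Fin (n + 1)) (i : Fin (n + 1)) : Finset V :=
  Finset.univ.filter (fun v => c v = i)

omit [DecidableEq V] in
theorem mem_cl {c : V → Fin (n + 1)} {i : Fin (n + 1)} {v : V} : v ∈ cl c i ↔ c v = i := by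
  simp [cl]

/-- Standing assumptions: the colour classes are cliques, there is no cycle of length `m`. -/
structure Cfg (G : SimpleGraph V) (m : ℕ) (c : V → Fin (n + 1)) : Prop where
  adj : ∀ u v, u ≠ v → c u = c v → G.Adj u v
  nocyc : ¬ HasCycle G m
  hm : 4 ≤ m

variable {G : SimpleGraph V} {m : ℕ} {c : V → Fin (n + 1)}

omit [DecidableEq V] in
theorem Cfg.clique (h : Cfg G m c) (i : Fin (n + 1)) : G.IsClique (cl c i : Set V) := by
  intro u hu v hv huv
  exact h.adj u v huv
    ((mem_cl.mp (Finset.mem_coe.mp hu)).trans (mem_cl.mp (Finset.mem_coe.mp hv)).symm)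

theorem Cfg.card_le (h : Cfg G m c) (i : Fin (n + 1)) : (cl c i).card + 1 ≤ m := by
  by_contra hcon
  have h4 := h.hm
  exact h.nocyc (hasCycle_of_clique G (cl c i) (h.clique i) m (by omega) (by omega))

omit [DecidableEq V] in
theorem sum_card_cl (c : V → Fin (n + 1)) : ∑ i, (cl c i).card = Fintype.card V := by
  rw [← Finset.card_univ]
  exact (Finset.card_eq_sum_card_fiberwise (f := c) (s := Finset.univ) (t := Finset.univ)
    (fun x _ => Finset.mem_coe.mpr (Finset.mem_univ _))).symm

/-- Two classes with at least `m` vertices together are not joined by two disjoint edges. -/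
theorem Cfg.star (h : Cfg G m c) {i j : Fin (n + 1)} (hij : i ≠ j)
    (hpair : m ≤ (cl c i).card + (cl c j).card) {a a' b b' : V}
    (ha : c a = i) (ha' : c a' = i) (hb : c b = j) (hb' : c b' = j)
    (haa : a ≠ a') (hbb : b ≠ b') (hab : G.Adj a b) (hab' : G.Adj a' b') : False := by
  have hdisj : Disjoint (cl c i) (cl c j) := by
    rw [Finset.disjoint_left]
    intro x hx hx'
    exact hij ((mem_cl.mp hx).symm.trans (mem_cl.mp hx'))
  exact h.nocyc (hasCycle_two_cliques G (cl c i) (cl c j) (h.clique i) (h.clique j) hdisj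
    (mem_cl.mpr ha) (mem_cl.mpr ha') (mem_cl.mpr hb) (mem_cl.mpr hb') haa hbb hab hab' m h.hm
    hpair)

/-- A class towards which some outside vertex has two neighbours has at most `m - 2` vertices. -/
theorem Cfg.hub_le (h : Cfg G m c) {j : Fin (n + 1)} {u b b' : V} (hu : c u ≠ j)
    (hb : c b = j) (hb' : c b' = j) (hbb : b ≠ b') (hub : G.Adj u b) (hub' : G.Adj u b') :
    (cl c j).card + 2 ≤ m := by
  by_contra hcon
  have h4 := h.hm
  exact h.nocyc (hasCycle_hub G (cl c j) (h.clique j) (fun hx => hu (mem_cl.mp hx))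
    (mem_cl.mpr hb) (mem_cl.mpr hb') hbb hub hub' m (by omega) (by omega))

/-- `x` has two neighbours of colour `j`. -/
def Hub (G : SimpleGraph V) (c : V → Fin (n + 1)) (x : V) (j : Fin (n + 1)) : Prop :=
  ∃ y y', c y = j ∧ c y' = j ∧ y ≠ y' ∧ G.Adj x y ∧ G.Adj x y'

/-- `y` witnesses that `x` is marked: `y` is a neighbour of `x` of another colour of `L`, and
either `x` has two neighbours of the colour of `y`, or `y` does not have two neighbours of the
colour of `x` and the class of `x` has the larger key. -/
def MarkW {κ : Type*} [LinearOrder κ] (G : SimpleGraph V) (c : V → Fin (n + 1))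
    (L : Finset (Fin (n + 1))) (key : Fin (n + 1) → κ) (x y : V) : Prop :=
  c y ∈ L ∧ c y ≠ c x ∧ G.Adj x y ∧
    (Hub G c x (c y) ∨ (¬ Hub G c y (c x) ∧ key (c y) < key (c x)))

/-- `x` is marked. -/
def Marked {κ : Type*} [LinearOrder κ] (G : SimpleGraph V) (c : V → Fin (n + 1))
    (L : Finset (Fin (n + 1))) (key : Fin (n + 1) → κ) (x : V) : Prop :=
  ∃ y, MarkW G c L key x y

variable {κ : Type*} [LinearOrder κ] {L : Finset (Fin (n + 1))} {key : Fin (n + 1) → κ}

omit [Fintype V] [DecidableEq V] in
/-- Every edge between two different classes of `L` has a marked end. -/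
theorem mark_edge (hkey : Function.Injective key) {x y : V} (hx : c x ∈ L) (hy : c y ∈ L)
    (hxy : c x ≠ c y) (hadj : G.Adj x y) : Marked G c L key x ∨ Marked G c L key y := by
  by_cases h1 : Hub G c x (c y)
  · exact Or.inl ⟨y, hy, hxy.symm, hadj, Or.inl h1⟩
  · by_cases h2 : Hub G c y (c x)
    · exact Or.inr ⟨x, hx, hxy, hadj.symm, Or.inl h2⟩
    · rcases lt_trichotomy (key (c x)) (key (c y)) with hlt | heq | hgt
      · exact Or.inr ⟨x, hx, hxy, hadj.symm, Or.inr ⟨h1, hlt⟩⟩
      · exact absurd (hkey heq) hxy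
      · exact Or.inl ⟨y, hy, hxy.symm, hadj, Or.inr ⟨h2, hgt⟩⟩

/-- Two different marked vertices of one class of `L` have witnesses of different colours. -/
theorem Cfg.markW_inj (h : Cfg G m c)
    (hpair : ∀ i ∈ L, ∀ j ∈ L, i ≠ j → m ≤ (cl c i).card + (cl c j).card)
    {x x' y y' : V} (hx : c x ∈ L) (hcx : c x = c x') (hne : x ≠ x')
    (hw : MarkW G c L key x y) (hw' : MarkW G c L key x' y') (hyy : c y = c y') : False := by
  obtain ⟨hyL, hyx, hadj, halt⟩ := hw
  obtain ⟨-, -, hadj', -⟩ := hw'
  have hp : m ≤ (cl c (c x)).card + (cl c (c y)).card := hpair _ hx _ hyL (Ne.symm hyx)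
  have hyeq : y = y' := by
    by_contra hne'
    exact h.star (Ne.symm hyx) hp rfl hcx.symm rfl hyy.symm hne hne' hadj hadj'
  subst hyeq
  have hhub : Hub G c y (c x) := ⟨x, x', rfl, hcx.symm, hne, hadj.symm, hadj'.symm⟩
  rcases halt with hh | ⟨hnh, -⟩
  · obtain ⟨z, z', hz, hz', hzz, hxz, hxz'⟩ := hh
    by_cases hzy : z = y
    · have hz'y : z' ≠ y := fun e => hzz (hzy.trans e.symm)
      exact h.star (Ne.symm hyx) hp rfl hcx.symm hz' rfl hne hz'y hxz' hadj'
    · exact h.star (Ne.symm hyx) hp rfl hcx.symm hz rfl hne hzy hxz hadj'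
  · exact hnh hhub

/-- The marked vertices of a class of `L` are at most as many as the colours that can occur as
colours of their witnesses. -/
theorem Cfg.card_marked_le (h : Cfg G m c)
    (hpair : ∀ i ∈ L, ∀ j ∈ L, i ≠ j → m ≤ (cl c i).card + (cl c j).card)
    [DecidablePred (fun x => Marked G c L key x)]
    {i : Fin (n + 1)} (hi : i ∈ L) (T : Finset (Fin (n + 1)))
    (hT : ∀ x y, c x = i → MarkW G c L key x y → c y ∈ T) :
    ((cl c i).filter (fun x => Marked G c L key x)).card ≤ T.card := by
  classical
  apply Finset.card_le_card_of_injOn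
    (fun x => if hx : Marked G c L key x then c (Classical.choose hx) else i)
  · intro x hx
    obtain ⟨hxi, hxm⟩ := Finset.mem_filter.mp (Finset.mem_coe.mp hx)
    simp only [dif_pos hxm]
    exact Finset.mem_coe.mpr (hT x _ (mem_cl.mp hxi) (Classical.choose_spec hxm))
  · intro x hx x' hx' heq
    obtain ⟨hxi, hxm⟩ := Finset.mem_filter.mp (Finset.mem_coe.mp hx)
    obtain ⟨hxi', hxm'⟩ := Finset.mem_filter.mp (Finset.mem_coe.mp hx')
    simp only [dif_pos hxm, dif_pos hxm'] at heq
    by_contra hne
    exact h.markW_inj hpair (by rw [mem_cl.mp hxi]; exact hi)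
      ((mem_cl.mp hxi).trans (mem_cl.mp hxi').symm) hne (Classical.choose_spec hxm)
      (Classical.choose_spec hxm') heq

end Vale.Agent.H45.CRB
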